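import Vale.Agent.P181.H89.FillS

/-!
P181: counting outside a set of columns.
-/

set_option autoImplicit false

namespace Vale.Agent.P181.BK

open Finset

variable {a N : ℕ}

lemma sg_out_sum (C : Fin a → Finset (Fin N)) (Z : Finset (Fin N))
    (hCZ : ∀ i c, c ∈ C i → c ∉ Z) {b X s : ℕ} (hC : ∀ i, (C i).card = b)
    (hN : N + X ≤ (s + 1) * b + Z.card) (S : Finset (Fin a)) (hS : S.card = s + 1) :
    2 * X ≤ ∑ p ∈ S.offDiag, (C p.1 ∩ C p.2).card := by
  classical
  rw [H89.sg_eq]
  have h1 := H89.card_sum C S
  rw [Finset.sum_congr rfl (fun i _ => hC i), Finset.sum_const, hS, smul_eq_mul] at h1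
  have h2 : ∑ c : Fin N, 2 * (S.filter (fun i => c ∈ C i)).card ≤
      ∑ c : Fin N, (((S.filter (fun i => c ∈ C i)).card *
        (S.filter (fun i => c ∈ C i)).card - (S.filter (fun i => c ∈ C i)).card) +
        if c ∈ Z then 0 else 2) := by
    apply Finset.sum_le_sum
    intro c _
    by_cases hc : c ∈ Z
    · have h3 : S.filter (fun i => c ∈ C i) = ∅ := by
        rw [Finset.filter_eq_empty_iff]
        intro i _ h
        exact hCZ i c h hc
      rw [h3]
      simp
    · rw [if_neg hc]
      generalize (S.filter (fun i => c ∈ C i)).card = k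
      rcases Nat.lt_or_ge k 3 with h | h
      · interval_cases k <;> norm_num
      · have h3 : 3 * k ≤ k * k := Nat.mul_le_mul_right k h
        omega
  have h4 : ∑ c : Fin N, (if c ∈ Z then 0 else 2) + 2 * Z.card = 2 * N := by
    rw [Finset.sum_ite, Finset.sum_const_zero, zero_add, Finset.sum_const, smul_eq_mul]
    have h5 : univ.filter (fun c => c ∉ Z) = Zᶜ := by
      ext c
      simp
    rw [h5]
    have h6 := Finset.card_add_card_compl Z
    rw [Fintype.card_fin] at h6
    omega
  rw [← Finset.mul_sum, ← h1, Finset.sum_add_distrib] at h2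
  omega

lemma sg_out_tall (C : Fin a → Finset (Fin N)) (Z : Finset (Fin N)) {X s : ℕ}
    (hZ : ∀ t ∈ Z, a + 1 ≤ (univ.filter (fun i => t ∈ C i)).card + s) (hX : X ≤ Z.card)
    (S : Finset (Fin a)) (hS : S.card = s + 1) :
    2 * X ≤ ∑ p ∈ S.offDiag, (C p.1 ∩ C p.2).card := by
  classical
  rw [H89.sg_eq]
  have h1 : ∑ t ∈ Z, 2 ≤
      ∑ c : Fin N, ((S.filter (fun i => c ∈ C i)).card *
        (S.filter (fun i => c ∈ C i)).card - (S.filter (fun i => c ∈ C i)).card) := by
    refine le_trans ?_ (Finset.sum_le_sum_of_subset (Finset.subset_univ Z))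
    apply Finset.sum_le_sum
    intro t ht
    have h5 : S.card + (univ.filter (fun i : Fin a => t ∈ C i)).card ≤
        (S.filter (fun i => t ∈ C i)).card + a := by
      have h6 := Finset.card_union_add_card_inter S (univ.filter (fun i : Fin a => t ∈ C i))
      have h7 : S ∩ univ.filter (fun i : Fin a => t ∈ C i) =
          S.filter (fun i => t ∈ C i) := by
        ext i
        simp only [Finset.mem_inter, Finset.mem_filter, Finset.mem_univ, true_and]
      have h8 := Finset.card_le_univ (S ∪ univ.filter (fun i : Fin a => t ∈ C i))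
      rw [Fintype.card_fin] at h8
      rw [h7] at h6
      omega
    have h9 := hZ t ht
    rw [hS] at h5
    have h6 : 2 ≤ (S.filter (fun i => t ∈ C i)).card := by omega
    generalize (S.filter (fun i => t ∈ C i)).card = k at h6
    have h7 : 2 * k ≤ k * k := Nat.mul_le_mul_right k h6
    omega
  rw [Finset.sum_const, smul_eq_mul] at h1
  omega

end Vale.Agent.P181.BK
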