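import Vale.Agent.P181.BK.Spec
import Vale.Agent.P181.BK.Sums
import Vale.Agent.P181.H530.F3
import Vale.Agent.P181.H626.InjK

/-!
P181: `b = q a + u`, assembly.
-/

set_option autoImplicit false

open scoped TensorProduct

namespace Vale.Agent.P181.BK

open Vale.Agent.P181 Vale.Agent.P181.H280 Vale.Agent.P181.H179 Vale.Agent.P181.H530
  Vale.Agent.P181.H54B Finset

variable {n : ℕ}

/-- The array map is injective on the highest weight vectors whose weight forces any `s + 1` rows
to share many columns and which has many full columns. -/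
theorem injBK (hG : RowG) (hE : RowE) (hL : RowL)
    {a q Q s w e0 D D0 X u W : ℕ} (ty : Fin Q → Bool) (c gz : Bool → ℕ)
    (hs : 1 ≤ s) (ha : s + 1 ≤ a) (hq : 2 ≤ q) (hu : 1 ≤ u) (hua : u < a) (hQ1 : 1 ≤ Q)
    (hc : ∃ z, 1 ≤ c z) (hQ : ∀ z, (univ.filter (fun κ => ty κ = z)).card = q * c z)
    (hah : a = c true * gz true + c false * gz false)
    (hw : 1 ≤ w) (hg : ∀ κ, w ≤ gz (ty κ)) (he : q * a ≤ Q * w + e0)
    (hD : D0 + 2 * e0 ≤ D)
    (hnum : ((a + u : ℕ) : ℝ) ^ 2 * (Q : ℝ) ^ 2 <
      Real.exp ((D0 : ℝ) ^ 2 / (4 * ((q * a : ℕ) : ℝ) * (Q : ℝ) ^ 2)))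
    (hX : 2 * s * (s * (s + 1)) * Q * D < X) (hDa : D < a - min u ((a + 1) / 2))
    (hPM : ∀ s', 1 ≤ s' → s' ≤ s → GK.PM2 s' q c)
    (ε : Fin (q * a + u) ≃ Gp a q u) (E : Equiv.Perm (Fin a × Fin (q * a + u)))
    (hE' : ∀ i j, (E (i, j)).1 = Sum.elim Prod.fst (fun _ => i) (ε j)) (han : a ≤ n)
    (hW : W + 1 = a + u + (u - (a + 1) / 2))
    (lam : Fin n → ℕ) (hlam : (∃ M, (∀ m, lam m ≤ M) ∧ M + X + s * W ≤ (s + 1) * (q * a + u)) ∨
      ∀ m : Fin n, (m : ℕ) + s ≤ a → X + W ≤ lam m)
    (htall : ∀ m : Fin n, (m : ℕ) < a → W ≤ lam m)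
    (x : Sym[ℂ]^a (Sym[ℂ]^(q * a + u) (Fin n → ℂ)))
    (hx : x ∈ hwSpace lam (plethAct a (q * a + u) n))
    (hx0 : arrMap a (q * a + u) E (Fin n → ℂ) x = 0) : x = 0 := by
  classical
  obtain ⟨l, rfl⟩ := exists_elOf x
  apply elOf_zero_of_fullForm
  by_contra hne
  obtain ⟨M0, hM0, hM1⟩ : ∃ M0, (∀ m, lam m ≤ M0) ∧ (M0 + X + s * W ≤ (s + 1) * (q * a + u) ∨
      ∀ m : Fin n, (m : ℕ) + s ≤ a → X + W ≤ lam m) := by
    rcases hlam with ⟨M, h1, h2⟩ | h
    · exact ⟨M, h1, Or.inl h2⟩
    · exact ⟨∑ m, lam m, fun m => Finset.single_le_sum (f := lam) (fun _ _ => Nat.zero_le _)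
        (Finset.mem_univ m), Or.inr h⟩
  obtain ⟨N, hN, l', e1, hV1, hcnt⟩ := exists_VV_col M0 (wt lam) (fullForm l)
    (fullForm_hw lam l hx) hne
    (fun m hm => by rw [wt, dif_neg (by omega)]) (fun m => by
      rw [wt]
      split_ifs with h
      · exact hM0 _
      · exact Nat.zero_le _)
  -- the full columns
  let H : Finset (Fin N) := univ.filter (fun t => a - 1 < l' t)
  have hHeq : H.card = lam ⟨a - 1, by omega⟩ := by
    have h1 : H.card = wt lam (a - 1) := hcnt (a - 1)
    rw [h1, wt, dif_pos (by omega : a - 1 < n)]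
  have hHcard : W ≤ H.card := by
    rw [hHeq]
    exact htall _ (by
      change a - 1 < a
      omega)
  have hWpos : 0 < W := by omega
  let col : ℕ → Fin N := fun m =>
    (H.equivFin.symm (Fin.castLE hHcard (if h : m < W then ⟨m, h⟩ else ⟨0, hWpos⟩))).1
  have hcolH : ∀ m, col m ∈ H := fun m => (H.equivFin.symm _).2
  have hcolinj : ∀ m m', m < W → m' < W → col m = col m' → m = m' := by
    intro m m' hm hm' h
    have h1 := H.equivFin.symm.injective (Subtype.ext h)
    rw [dif_pos hm, dif_pos hm'] at h1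
    have h2 := congrArg (fun z : Fin H.card => (z : ℕ)) h1
    exact h2
  obtain ⟨Z, hZ⟩ : ∃ Z : Finset (Fin N), Z = (Finset.range W).image col := ⟨_, rfl⟩
  have hZcard : Z.card = W := by
    rw [hZ, Finset.card_image_of_injOn, Finset.card_range]
    intro m hm m' hm' h
    exact hcolinj m m' (Finset.mem_range.1 hm) (Finset.mem_range.1 hm') h
  have hZH : ∀ t ∈ Z, t ∈ H := by
    intro t ht
    rw [hZ] at ht
    obtain ⟨m, _, rfl⟩ := Finset.mem_image.1 ht
    exact hcolH m
  -- the extremal filling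
  obtain ⟨pot, hpot⟩ : ∃ pot : (Box l' → Fin a) → ℕ, pot = fun r =>
      SK.wtK s X (T3.cc (fun p : {p : Box l' // p.1 ∉ Z} => p.1.1) (fun p => r p.1)) := ⟨_, rfl⟩
  obtain ⟨e, hemem, hmin⟩ := Finset.exists_min_image
    (univ.filter (fun e : Box l' → Fin a => VV (fullForm l) l' e ≠ 0)) pot
    ⟨e1, Finset.mem_filter.2 ⟨Finset.mem_univ _, hV1⟩⟩
  have hV : VV (fullForm l) l' e ≠ 0 := (Finset.mem_filter.1 hemem).2
  have hcol0 : ∀ t, Function.Injective (fun u => e ⟨t, u⟩) := by
    intro t u v h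
    by_contra huv
    exact hV (VV_anti _ e t huv h)
  have hrow := VV_card (fullForm_deg l) hV
  let C0 : Fin a → Finset (Fin N) := fun i => univ.filter (fun t => ∃ u, e ⟨t, u⟩ = i)
  have hC0 : ∀ i t, t ∈ C0 i ↔ ∃ u, e ⟨t, u⟩ = i := fun i t => by
    simp only [C0, Finset.mem_filter, Finset.mem_univ, true_and]
  have hbij : ∀ i (R : Fin N → Prop) [DecidablePred R],
      (univ.filter (fun p : Box l' => e p = i ∧ R p.1)).card = ((C0 i).filter R).card := by
    intro i R _
    apply Finset.card_bij (fun p _ => p.1)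
    · intro p hp
      rw [Finset.mem_filter] at hp
      rw [Finset.mem_filter, hC0]
      exact ⟨⟨p.2, hp.2.1⟩, hp.2.2⟩
    · intro p hp p' hp' h
      rw [Finset.mem_filter] at hp hp'
      obtain ⟨t, u⟩ := p
      obtain ⟨t', u'⟩ := p'
      simp only at h
      subst h
      rw [hcol0 t (hp.2.1.trans hp'.2.1.symm)]
    · intro t ht
      rw [Finset.mem_filter, hC0] at ht
      obtain ⟨⟨u, hu⟩, hR⟩ := ht
      exact ⟨⟨t, u⟩, Finset.mem_filter.2 ⟨Finset.mem_univ _, hu, hR⟩, rfl⟩
  have hC0card : ∀ i, (C0 i).card = q * a + u := by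
    intro i
    have h1 := hbij i (fun _ => True)
    simp only [and_true, Finset.filter_true] at h1
    rw [← h1]
    exact hrow i
  have hcc0 : ∀ t, (univ.filter (fun i : Fin a => t ∈ C0 i)).card = l' t := by
    intro t
    have h4 : univ.filter (fun i : Fin a => t ∈ C0 i) =
        univ.image (fun z : Fin (l' t) => e ⟨t, z⟩) := by
      ext i
      rw [Finset.mem_filter, hC0, Finset.mem_image]
      constructor
      · rintro ⟨_, z, h6⟩
        exact ⟨z, Finset.mem_univ _, h6⟩
      · rintro ⟨z, _, h6⟩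
        exact ⟨Finset.mem_univ _, z, h6⟩
    rw [h4, Finset.card_image_of_injective _ (hcol0 t), Finset.card_univ, Fintype.card_fin]
  have hfull : ∀ t ∈ H, ∀ i, ∃ u, e ⟨t, u⟩ = i := by
    intro t ht
    have h1 : a - 1 < l' t := (Finset.mem_filter.1 ht).2
    have h2 : l' t ≤ a := by
      have h3 := Fintype.card_le_of_injective _ (hcol0 t)
      rwa [Fintype.card_fin, Fintype.card_fin] at h3
    have h3 : Function.Bijective (fun u => e ⟨t, u⟩) := by
      rw [Fintype.bijective_iff_injective_and_card]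
      refine ⟨hcol0 t, ?_⟩
      rw [Fintype.card_fin, Fintype.card_fin]
      omega
    exact fun i => h3.2 i
  let A : Fin u → Fin a → ℕ := fun k i => ph a u i + k
  have hAW : ∀ k i, A k i < W := by
    intro k i
    have := ph_lt i k
    simp only [A]
    omega
  have hcol : ∀ k i k' i', col (A k i) = col (A k' i') → A k i = A k' i' :=
    fun k i k' i' h => hcolinj _ _ (hAW k i) (hAW k' i') h
  have hA : ∀ k, StrictMono (A k) := fun k i i' h => Nat.add_lt_add_right (ph_strictMono a u h) _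
  have hAk : ∀ i k k', A k i = A k' i → k = k' := by
    intro i k k' h
    simp only [A] at h
    exact Fin.ext (by omega)
  have hAZ : ∀ k i, col (A k i) ∈ Z := fun k i => by
    rw [hZ]
    exact Finset.mem_image_of_mem _ (Finset.mem_range.2 (hAW k i))
  -- the special columns of a row
  let Ds : Fin a → Finset (Fin N) := fun i => univ.image (fun k : Fin u => col (A k i))
  have hDs : ∀ i t, t ∈ Ds i ↔ ∃ k : Fin u, t = col (A k i) := by
    intro i t
    simp only [Ds, Finset.mem_image, Finset.mem_univ, true_and]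
    constructor
    · rintro ⟨k, rfl⟩
      exact ⟨k, rfl⟩
    · rintro ⟨k, rfl⟩
      exact ⟨k, rfl⟩
  have hDsZ : ∀ i t, t ∈ Ds i → t ∈ Z := by
    intro i t ht
    obtain ⟨k, rfl⟩ := (hDs i t).1 ht
    exact hAZ k i
  have hDscard : ∀ i, (Ds i).card = u := by
    intro i
    have h1 : (Ds i).card = (univ : Finset (Fin u)).card :=
      Finset.card_image_of_injective _ (fun k k' h => hAk i k k' (hcol _ _ _ _ h))
    rw [h1, Finset.card_univ, Fintype.card_fin]
  have hcolC0 : ∀ m i, col m ∈ C0 i := fun m i => (hC0 i _).2 (hfull _ (hcolH m) i)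
  have hZC0 : ∀ i, Z ⊆ C0 i := fun i t ht => (hC0 i t).2 (hfull t (hZH t ht) i)
  have hDsC : ∀ i, Ds i ⊆ C0 i := fun i t ht => hZC0 i (hDsZ i t ht)
  let C : Fin a → Finset (Fin N) := fun i => C0 i \ Ds i
  have hC : ∀ i, (C i).card = q * a := by
    intro i
    have h1 := Finset.card_sdiff_of_subset (hDsC i)
    have h2 : (C i).card = (C0 i).card - (Ds i).card := h1
    rw [h2, hC0card, hDscard]
    omega
  let Co : Fin a → Finset (Fin N) := fun i => C0 i \ Z
  have hCo : ∀ i, (Co i).card + W = q * a + u := by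
    intro i
    have h1 := Finset.card_sdiff_add_card_eq_card (hZC0 i)
    rw [hZcard, hC0card] at h1
    exact h1
  have hgam : ∀ S : Finset (Fin a), S.card = s + 1 →
      2 * X ≤ ∑ p ∈ S.offDiag, (Co p.1 ∩ Co p.2).card := by
    intro S hS
    rcases hM1 with h1 | h1
    · apply sg_out_sum Co Z (fun i t ht => (Finset.mem_sdiff.1 ht).2) (b := q * a + u - W)
        (fun i => by have := hCo i; omega) ?_ S hS
      rw [hZcard]
      have h2 := hCo ⟨0, by omega⟩
      have h3 : W ≤ q * a + u := by omega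
      obtain ⟨r, hr⟩ : ∃ r, q * a + u = r + W := ⟨q * a + u - W, by omega⟩
      rw [hr] at h1 ⊢
      rw [Nat.add_sub_cancel]
      have h4 : (s + 1) * (r + W) = (s + 1) * r + s * W + W := by ring
      rw [h4] at h1
      omega
    · apply sg_out_tall Co ((univ.filter (fun t => a - s < l' t)) \ Z) ?_ ?_ S hS
      · intro t ht
        rw [Finset.mem_sdiff, Finset.mem_filter] at ht
        have h2 : univ.filter (fun i : Fin a => t ∈ Co i) =
            univ.filter (fun i : Fin a => t ∈ C0 i) := by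
          apply Finset.filter_congr
          intro i _
          exact ⟨fun h => (Finset.mem_sdiff.1 h).1, fun h => Finset.mem_sdiff.2 ⟨h, ht.2⟩⟩
        rw [h2, hcc0]
        have := ht.1.2
        omega
      · have h2 := hcnt (a - s)
        rw [wt, dif_pos (by omega : a - s < n)] at h2
        have h3 := Finset.le_card_sdiff Z (univ.filter (fun t => a - s < l' t))
        rw [h2, hZcard] at h3
        have h4 := h1 ⟨a - s, by omega⟩ (by simp only; omega)
        omega
  -- the windows
  let T : Fin a → Fin u → Finset (Fin N) := fun i k =>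
    univ.image (fun i' : Fin a => col (A k i')) \ Ds i
  have hT : ∀ i k, T i k ⊆ C i := by
    intro i k t ht
    rw [Finset.mem_sdiff] at ht
    obtain ⟨i', _, rfl⟩ := Finset.mem_image.1 ht.1
    exact Finset.mem_sdiff.2 ⟨hcolC0 _ i, ht.2⟩
  have himg : ∀ k, (univ.image (fun i' : Fin a => col (A k i'))).card = a := by
    intro k
    rw [Finset.card_image_of_injective _
      (fun i' i'' h => (hA k).injective (hcol _ _ _ _ h)), Finset.card_univ, Fintype.card_fin]
  have hM : ∀ i k, a - min u ((a + 1) / 2) ≤ (T i k).card := by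
    intro i k
    have h1 : ((univ.image (fun i' : Fin a => col (A k i'))) ∩ Ds i).card ≤
        min u ((a + 1) / 2) := by
      refine le_trans ?_ (ph_window a u i k)
      have h2 : (univ.image (fun i' : Fin a => col (A k i'))) ∩ Ds i ⊆
          (univ.filter (fun i' : Fin a => ph a u i ≤ ph a u i' + k ∧
            ph a u i' + k < ph a u i + u)).image (fun i' : Fin a => col (A k i')) := by
        intro t ht
        rw [Finset.mem_inter] at ht
        obtain ⟨i', _, rfl⟩ := Finset.mem_image.1 ht.1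
        obtain ⟨k', hk'⟩ := (hDs i _).1 ht.2
        have h3 := hcol _ _ _ _ hk'
        have h4 := k'.2
        apply Finset.mem_image_of_mem
        rw [Finset.mem_filter]
        simp only [A] at h3
        refine ⟨Finset.mem_univ _, ?_, ?_⟩ <;> omega
      exact (Finset.card_le_card h2).trans Finset.card_image_le
    have h6 := Finset.card_sdiff_add_card_inter (univ.image (fun i' : Fin a => col (A k i'))) (Ds i)
    have h7 : (T i k).card = (univ.image (fun i' : Fin a => col (A k i')) \ Ds i).card := rfl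
    rw [← h7, himg k] at h6
    have h9 : a ≤ (T i k).card + min u ((a + 1) / 2) :=
      le_trans (le_of_eq h6.symm) (Nat.add_le_add_left h1 _)
    exact Nat.sub_le_iff_le_add.2 h9
  -- virtual rows
  have hqa : a ≤ q * a := Nat.le_mul_of_pos_left a (by omega)
  have hvirt : ∀ k : Fin u, ∃ Y : Finset (Fin N),
      univ.image (fun i' : Fin a => col (A k i')) ⊆ Y ∧ Y.card = q * a := by
    intro k
    obtain ⟨Y, h1, h2⟩ := Finset.exists_superset_card_eq (n := q * a)
      (by rw [himg k]; exact hqa) (by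
        have h1 := Finset.card_le_univ (C ⟨0, by omega⟩)
        rw [hC] at h1
        exact h1)
    exact ⟨Y, h1, h2⟩
  choose Yv hYv1 hYv2 using hvirt
  let Cf : Fin (a + u) → Finset (Fin N) := Fin.addCases C Yv
  let Sf : Fin (a + u) → Fin (a + u) → Finset (Fin N) := fun i j =>
    Fin.addCases (motive := fun _ => Finset (Fin N)) (fun i' => Fin.addCases
      (motive := fun _ => Finset (Fin N)) (fun j' => (C i' ∩ C j') \ Z)
      (fun k => T i' k) j) (fun _ => ∅) i
  have hsum : ∑ κ, gz (ty κ) = q * a := by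
    rw [H89.sum_szS ty gz hQ, ← hah]
  obtain ⟨lab', hl1, hl2⟩ := hL (a + u) N Q w e0 (q * a) D D0 Cf (fun κ => gz (ty κ)) Sf (by
      intro i j
      refine Fin.addCases (fun i' => ?_) (fun k => ?_) i
      · refine Fin.addCases (fun j' => ?_) (fun k => ?_) j
        · simp only [Sf, Cf, Fin.addCases_left]
          exact Finset.sdiff_subset
        · simp only [Sf, Cf, Fin.addCases_left, Fin.addCases_right]
          intro t ht
          rw [Finset.mem_inter]
          exact ⟨hT i' k ht, hYv1 k (Finset.mem_sdiff.1 ht).1⟩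
      · simp only [Sf, Fin.addCases_right]
        exact Finset.empty_subset _) hQ1 hw hg (by
      intro i
      rw [hsum]
      refine Fin.addCases (fun i' => ?_) (fun k => ?_) i
      · simp only [Cf, Fin.addCases_left]
        exact hC i'
      · simp only [Cf, Fin.addCases_right]
        exact hYv2 k) (by rw [hsum]; exact he) (by rw [hsum]) hD hnum
  obtain ⟨lab, hlab⟩ : ∃ lab : Fin a → Fin N → Fin Q, lab = fun i => lab' (Fin.castAdd u i) :=
    ⟨_, rfl⟩
  have hsize : ∀ i κ, ((C i).filter (fun t => lab i t = κ)).card = gz (ty κ) := by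
    intro i κ
    have h1 := hl1 (Fin.castAdd u i) κ
    simp only [Cf, Fin.addCases_left] at h1
    rw [hlab]
    exact h1
  have hpair : ∀ i j, i ≠ j → ∀ κ κ', ((C i ∩ C j) \ Z).card ≤
      Q ^ 2 * (((C i ∩ C j) \ Z).filter (fun t => lab i t = κ ∧ lab j t = κ')).card + D := by
    intro i j hij κ κ'
    have h1 := hl2 (Fin.castAdd u i) (Fin.castAdd u j) (by
      intro h
      exact hij (Fin.castAdd_injective a u h)) κ κ'
    simp only [Sf, Fin.addCases_left] at h1
    rw [hlab]
    exact h1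
  have hwin : ∀ i k κ, ∃ t ∈ T i k, lab i t = κ := by
    intro i k κ
    have h1 := hl2 (Fin.castAdd u i) (Fin.natAdd a k) (by
      intro h
      have h2 := congrArg Fin.val h
      simp only [Fin.val_castAdd, Fin.val_natAdd] at h2
      omega) κ κ
    simp only [Sf, Fin.addCases_left, Fin.addCases_right] at h1
    have h2 := hM i k
    by_contra hno
    push Not at hno
    have h3 : ((T i k).filter (fun t => lab' (Fin.castAdd u i) t = κ ∧
        lab' (Fin.natAdd a k) t = κ)).card = 0 := by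
      rw [Finset.card_eq_zero, Finset.filter_eq_empty_iff]
      intro t ht h4
      apply hno t ht
      rw [hlab]
      exact h4.1
    rw [h3, mul_zero, zero_add] at h1
    omega
  -- the groups of the boxes
  let fm : Box l' → (Fin a × Fin Q) ⊕ Fin u := fun p =>
    if h : ∃ k : Fin u, p.1 = col (A k (e p)) then Sum.inr h.choose
    else Sum.inl (e p, lab (e p) p.1)
  have hfr : ∀ p k, fm p = Sum.inr k ↔ p.1 = col (A k (e p)) := by
    intro p k
    by_cases h : ∃ k : Fin u, p.1 = col (A k (e p))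
    · have h1 : fm p = Sum.inr h.choose := dif_pos h
      rw [h1]
      have h2 := h.choose_spec
      constructor
      · intro h3
        rw [Sum.inr_injective h3] at h2
        exact h2
      · intro h3
        rw [hAk (e p) _ _ (hcol _ _ _ _ (h2.symm.trans h3))]
    · have h1 : fm p = Sum.inl (e p, lab (e p) p.1) := dif_neg h
      rw [h1]
      constructor
      · intro h3
        exact absurd h3 Sum.inl_ne_inr
      · intro h3
        exact absurd ⟨k, h3⟩ h
  have hfl : ∀ p i κ, fm p = Sum.inl (i, κ) ↔ e p = i ∧ (p.1 ∉ Ds i ∧ lab i p.1 = κ) := by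
    intro p i κ
    by_cases h : ∃ k : Fin u, p.1 = col (A k (e p))
    · have h1 : fm p = Sum.inr h.choose := dif_pos h
      rw [h1]
      constructor
      · intro h3
        exact absurd h3 Sum.inr_ne_inl
      · rintro ⟨rfl, h3, _⟩
        exact absurd ((hDs _ _).2 h) h3
    · have h1 : fm p = Sum.inl (e p, lab (e p) p.1) := dif_neg h
      rw [h1]
      constructor
      · intro h3
        have h4 := Sum.inl_injective h3
        have h5 := congrArg Prod.fst h4
        have h6 := congrArg Prod.snd h4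
        simp only at h5 h6
        subst h5
        exact ⟨rfl, fun h7 => h ((hDs _ _).1 h7), h6⟩
      · rintro ⟨rfl, _, rfl⟩
        rfl
  have hfo : ∀ p : Box l', p.1 ∉ Z → fm p = Sum.inl (e p, lab (e p) p.1) := fun p hp =>
    (hfl p _ _).2 ⟨rfl, fun h => hp (hDsZ _ _ h), rfl⟩
  have hinC : ∀ i t, t ∈ C i → ∃ v, e ⟨t, v⟩ = i ∧ t ∉ Ds i := by
    intro i t ht
    obtain ⟨h1, h2⟩ := Finset.mem_sdiff.1 ht
    obtain ⟨v, hv⟩ := (hC0 i t).1 h1
    exact ⟨v, hv, h2⟩
  -- the function of the pieces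
  obtain ⟨Wf, hWf⟩ : ∃ Wf : (Fin a × Fin Q → Fin a) → ℂ, Wf = fun y =>
      ∑ τ : Fin u → Equiv.Perm (Fin a), VV (fullForm l) l'
        (fun p => Sum.elim y (fun j => τ j (e p)) (fm p)) := ⟨_, rfl⟩
  have hWfst : Wf Prod.fst = VV (fullForm l) l' e := by
    rw [hWf]
    simp only
    rw [Finset.sum_eq_single (1 : Fin u → Equiv.Perm (Fin a))]
    · congr 1
      funext p
      rcases hf : fm p with ⟨i, κ⟩ | j
      · exact ((hfl p i κ).1 hf).1.symm
      · rfl
    · intro τ _ hτ
      by_contra hne'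
      apply hτ
      funext j
      exact hE n a u N Q l' (fullForm l) e fm (fun p i κ h => ((hfl p i κ).1 h).1) A hA col hcol
        (fun k i i' => hfull _ (hcolH (A k i)) i') (fun k i v hv => by rw [hfr, hv])
        (fun p k h => (hfr p k).1 h) τ hne' j
    · intro h
      exact absurd (Finset.mem_univ _) h
  apply hV
  rw [← hWfst]
  set tB : {p : Box l' // p.1 ∉ Z} → Fin N := fun p => p.1.1 with htB
  set pc : {p : Box l' // p.1 ∉ Z} → Fin a × Fin Q := fun p => (e p.1, lab (e p.1) p.1.1) with hpc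
  have hccB : ∀ i j, T3.cc tB (fun x => (pc x).1) i j = ((C i ∩ C j) \ Z).card := by
    intro i j
    rw [T3.cc]
    congr 1
    ext t
    rw [Finset.mem_filter, Finset.mem_sdiff, Finset.mem_inter]
    constructor
    · rintro ⟨_, ⟨⟨x, hx⟩, hx1, hx2⟩, ⟨x', hx'⟩, hx1', hx2'⟩
      simp only [htB, hpc] at hx1 hx2 hx1' hx2'
      subst hx1
      refine ⟨⟨Finset.mem_sdiff.2 ⟨(hC0 _ _).2 ⟨x.2, hx2⟩, fun h => hx (hDsZ _ _ h)⟩,
        Finset.mem_sdiff.2 ⟨?_, fun h => hx (hDsZ _ _ h)⟩⟩, hx⟩
      rw [hC0]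
      obtain ⟨t', v'⟩ := x'
      simp only at hx1'
      subst hx1'
      exact ⟨v', hx2'⟩
    · rintro ⟨⟨h1, h2⟩, h3⟩
      obtain ⟨v, hv, _⟩ := hinC i t h1
      obtain ⟨v', hv', _⟩ := hinC j t h2
      exact ⟨Finset.mem_univ _, ⟨⟨⟨t, v⟩, h3⟩, rfl, hv⟩, ⟨⟨⟨t, v'⟩, h3⟩, rfl, hv'⟩⟩
  have hCoC : ∀ i j, (Co i ∩ Co j) = (C i ∩ C j) \ Z := by
    intro i j
    ext t
    simp only [Co, C, Finset.mem_inter, Finset.mem_sdiff]
    constructor
    · rintro ⟨⟨h1, h2⟩, h3, _⟩
      exact ⟨⟨⟨h1, fun h => h2 (hDsZ _ _ h)⟩, h3, fun h => h2 (hDsZ _ _ h)⟩, h2⟩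
    · rintro ⟨⟨⟨h1, _⟩, h3, _⟩, h2⟩
      exact ⟨⟨h1, h2⟩, h3, h2⟩
  refine GK.tensor2 (part := SK.partK s X (T3.cc tB (fun x => (pc x).1))) ty c hc
    (fun i => hPM _ ?_ ?_) Wf ?_ ?_ hQ ?_
  · exact Finset.card_pos.2 ⟨i, Finset.mem_filter.2 ⟨Finset.mem_univ _, rfl⟩⟩
  · exact SK.card_partK hs X _ _
  · -- symmetry
    intro τ0 y
    rw [hWf]
    simp only
    rw [← Equiv.sum_comp (Equiv.mulLeft (fun _ : Fin u => τ0))]
    apply Finset.sum_congr rfl
    intro τ _
    rw [← VV_symm (fullForm_symm l) τ0 (fun p => Sum.elim y (fun j => τ j (e p)) (fm p))]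
    congr 1
    funext p
    rcases fm p with x | j
    · rfl
    · rfl
  · -- relation
    intro ρ hρ
    rw [hWf]
    simp only
    refine hG n a q u N Q l' hq ε E hE' l hx0 e fm ty c gz hc ?_ ?_ ?_ hah ?_ ?_ ρ hρ
    · intro i κ
      have h1 : (univ.filter (fun p : Box l' => fm p = Sum.inl (i, κ))) =
          univ.filter (fun p : Box l' => e p = i ∧ (p.1 ∉ Ds i ∧ lab i p.1 = κ)) := by
        ext p
        rw [Finset.mem_filter, Finset.mem_filter, hfl]
      rw [h1, hbij i (fun t => t ∉ Ds i ∧ lab i t = κ), ← hsize i κ]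
      congr 1
      ext t
      simp only [C, Finset.mem_filter, Finset.mem_sdiff, and_assoc]
    · intro k
      have h1 : (univ.filter (fun p : Box l' => fm p = Sum.inr k)).card =
          (univ : Finset (Fin a)).card := by
        apply Finset.card_bij (fun p _ => e p)
        · intro p _
          exact Finset.mem_univ _
        · rintro ⟨t, v⟩ hp ⟨t', v'⟩ hp' h
          have h2 := (hfr _ k).1 (Finset.mem_filter.1 hp).2
          have h3 := (hfr _ k).1 (Finset.mem_filter.1 hp').2
          simp only at h2 h3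
          rw [← h] at h3
          have h4 : t = t' := h2.trans h3.symm
          subst h4
          rw [hcol0 t h]
        · intro i _
          obtain ⟨v, hv⟩ := hfull _ (hcolH (A k i)) i
          refine ⟨⟨col (A k i), v⟩, Finset.mem_filter.2 ⟨Finset.mem_univ _, ?_⟩, hv⟩
          rw [hfr, hv]
      rw [h1, Finset.card_univ, Fintype.card_fin]
    · rintro ⟨t, v⟩ ⟨t', v'⟩ k hp hp' h
      have h2 := (hfr _ k).1 hp
      have h3 := (hfr _ k).1 hp'
      simp only at h2 h3
      rw [← h] at h3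
      have h4 : t = t' := h2.trans h3.symm
      subst h4
      rw [hcol0 t h]
    · rintro k ⟨i, κ⟩
      obtain ⟨t, ht, h1⟩ := hwin i k κ
      obtain ⟨v, hv, hv'⟩ := hinC i t (hT i k ht)
      obtain ⟨i', _, hi'⟩ := Finset.mem_image.1 (Finset.mem_sdiff.1 ht).1
      obtain ⟨v', hu⟩ := (hC0 i' t).1 (by rw [← hi']; exact hcolC0 _ i')
      refine ⟨t, v', v, ?_, (hfl _ _ _).2 ⟨hv, hv', h1⟩⟩
      rw [hfr, hu]
      exact hi'.symm
    · intro k k' hkne
      have h1 : ∃ i i' : Fin a, A k i = A k' i' := by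
        rcases lt_or_gt_of_ne hkne with h | h
        · exact ph_diff hua k k' h
        · obtain ⟨i, i', h2⟩ := ph_diff hua k' k h
          exact ⟨i', i, h2.symm⟩
      obtain ⟨i, i', h2⟩ := h1
      obtain ⟨v, hu⟩ := hfull _ (hcolH (A k i)) i
      obtain ⟨v', hv⟩ := hfull _ (hcolH (A k i)) i'
      refine ⟨col (A k i), v, v', ?_, ?_⟩
      · rw [hfr, hu]
      · rw [hfr, hv]
        exact congrArg col h2
  · -- structure
    intro y hy hWy
    rw [hWf] at hWy
    simp only at hWy
    obtain ⟨τ, _, hVy⟩ := Finset.exists_ne_zero_of_sum_ne_zero hWy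
    have hbal : ∀ m, (univ.filter (fun p => y p = m)).card = Q := by
      intro m
      have h1 : (univ.filter (fun p : Fin a × Fin Q => y p = m)).card =
          ∑ z : Bool, ((univ.filter (fun p : Fin a × Fin Q => y p = m)).filter
            (fun p => ty p.2 = z)).card :=
        Finset.card_eq_sum_card_fiberwise (fun p _ => Finset.mem_coe.2 (Finset.mem_univ _))
      have h2 : (Finset.univ : Finset (Fin Q)).card =
          ∑ z : Bool, ((Finset.univ : Finset (Fin Q)).filter (fun κ => ty κ = z)).card :=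
        Finset.card_eq_sum_card_fiberwise (fun p _ => Finset.mem_coe.2 (Finset.mem_univ _))
      rw [Finset.card_univ, Fintype.card_fin, Fintype.sum_bool, hQ, hQ] at h2
      rw [h1, Fintype.sum_bool, Finset.filter_filter, Finset.filter_filter, hy, hy, h2]
    obtain ⟨τ', hτ'⟩ := SK.structK a N Q s D X {p : Box l' // p.1 ∉ Z} tB pc (by
        rintro ⟨⟨t, v⟩, h1⟩ ⟨⟨t', v'⟩, h1'⟩ h2 h3 h4
        simp only [htB] at h2
        subst h2
        simp only [hpc] at h4
        apply h3
        have h5 := hcol0 t h4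
        subst h5
        rfl) hQ1 hs (by
        intro i j hij κ κ'
        rw [hccB]
        refine (hpair i j hij κ κ').trans (Nat.add_le_add_right (Nat.mul_le_mul_left _
          (Finset.card_le_card ?_)) _)
        intro t ht
        rw [Finset.mem_filter, Finset.mem_sdiff, Finset.mem_inter] at ht
        obtain ⟨⟨⟨h1, h2⟩, h3⟩, h4, h5⟩ := ht
        obtain ⟨v, hv, _⟩ := hinC i t h1
        obtain ⟨v', hv', _⟩ := hinC j t h2
        rw [Finset.mem_filter]
        refine ⟨Finset.mem_univ _, ⟨⟨⟨t, v⟩, h3⟩, rfl, ?_⟩, ⟨⟨t, v'⟩, h3⟩, rfl, ?_⟩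
        · simp only [hpc]
          rw [hv, h4]
        · simp only [hpc]
          rw [hv', h5]) hX (by
        intro S hS
        rw [Finset.sum_congr rfl (g := fun p : Fin a × Fin a => (Co p.1 ∩ Co p.2).card)
          (fun p _ => by rw [hccB, hCoC])]
        exact hgam S hS) y hbal (by
        rintro ⟨⟨t, v⟩, h1⟩ ⟨⟨t', v'⟩, h1'⟩ h2 h3 h4
        simp only [htB] at h2
        subst h2
        apply hVy
        refine VV_anti _ _ t (u := v) (v := v') (fun h => h3 (by subst h; rfl)) ?_
        rw [hfo ⟨t, v⟩ h1, hfo ⟨t, v'⟩ h1']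
        exact h4) (by
        have h1 := hmin _ (Finset.mem_filter.2 ⟨Finset.mem_univ _, hVy⟩)
        rw [hpot] at h1
        beta_reduce at h1
        have h2 : (fun p : {p : Box l' // p.1 ∉ Z} =>
            Sum.elim y (fun j => τ j (e p.1)) (fm p.1)) = fun x => y (pc x) := by
          funext x
          rw [hfo x.1 x.2]
          rfl
        rw [h2] at h1
        exact h1)
    exact ⟨τ', fun p => hτ' p.1 p.2⟩

end Vale.Agent.P181.BK
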