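import Vale.Agent.P181.BK.Top
import Vale.Agent.P181.H354.RowG
import Vale.Agent.P181.H907.RowE
import Vale.Agent.P181.H907.RowL

/-!
P181: `b = q a + u`, any number of rows in a part, many full columns: the theorem.
-/

set_option autoImplicit false

namespace Vale.Agent.P181.BK

open Vale.Agent.P181 Vale.Agent.P181.H280

/-- **Foulkes for `b = q a + u`, `0 < u < a`, `q ≥ 2`, `λ_0 ≤ K b` and many full columns.** One
equivariant map, injective on the highest weight vectors. -/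
theorem bulkU {a q s u X n : ℕ} (hs : 2 ≤ s) (hq : 2 ≤ q)
    (hu : 1 ≤ u) (hua : u < a) (han : a ≤ n)
    (ha : 4 * (10 : ℝ) ^ 6 * (s : ℝ) ^ 14 * (q : ℝ) ^ 7 * Real.log a ≤ a)
    (hX : 4 * (10 : ℝ) ^ 6 * (s : ℝ) ^ 14 * (q : ℝ) ^ 9 * a * Real.log a ≤ (X : ℝ) ^ 2) :
    ∃ Ψ : Pleth a (q * a + u) n →ₗ[ℂ] Pleth (q * a + u) a n, IsEquivariant Ψ ∧
      ∀ lam : Fin n → ℕ, ((∀ i, 2 * lam i + 2 * X + 3 * s * a ≤ 2 * ((s + 1) * (q * a))) ∨
        ∀ i : Fin n, (i : ℕ) + s ≤ a → 2 * X + 5 * a ≤ 2 * lam i) →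
        (∀ i : Fin n, (i : ℕ) < a → 5 * a ≤ 2 * lam i) →
        InjOnHW Ψ lam ∧ plethMult a (q * a + u) n lam ≤ plethMult (q * a + u) a n lam :=
  bulkK rowG H907.rowE H907.rowL hs hq hu hua han ha hX

end Vale.Agent.P181.BK
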