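import Vale.Agent.P181.H530.D2
import Vale.Agent.P181.H626.LabelK

/-!
P181: `b = q a + u` with `u` special groups in full columns, any number of rows in a part.
Statements of the rows.
-/

set_option autoImplicit false

open scoped TensorProduct

namespace Vale.Agent.P181.BK

open Vale.Agent.P181 Vale.Agent.P181.H280 Vale.Agent.P181.H179 Vale.Agent.P181.H530 Finset

/-- Row G: the relation of the array map, when no special group can be placed in a row as a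
whole. -/
def RowG : Prop := ∀ (n a q u N Q : ℕ) (l' : Fin N → ℕ), 2 ≤ q →
  ∀ (ε : Fin (q * a + u) ≃ Gp a q u) (E : Equiv.Perm (Fin a × Fin (q * a + u))),
  (∀ i j, (E (i, j)).1 = Sum.elim Prod.fst (fun _ => i) (ε j)) →
  ∀ l : (Fin a → Fin (q * a + u) → (Fin n → ℂ)) →₀ ℂ,
  arrMap a (q * a + u) E (Fin n → ℂ) (elOf l) = 0 →
  ∀ (e : Box l' → Fin a) (fm : Box l' → (Fin a × Fin Q) ⊕ Fin u) (ty : Fin Q → Bool)
    (c gz : Bool → ℕ), (∃ z, 1 ≤ c z) →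
  (∀ i κ, (univ.filter (fun p => fm p = Sum.inl (i, κ))).card = gz (ty κ)) →
  (∀ j, (univ.filter (fun p => fm p = Sum.inr j)).card = a) →
  (∀ p p' j, fm p = Sum.inr j → fm p' = Sum.inr j → e p = e p' → p = p') →
  a = c true * gz true + c false * gz false →
  (∀ (k : Fin u) (x : Fin a × Fin Q), ∃ t v w, fm ⟨t, v⟩ = Sum.inr k ∧ fm ⟨t, w⟩ = Sum.inl x) →
  (∀ k k' : Fin u, k ≠ k' → ∃ t v w, fm ⟨t, v⟩ = Sum.inr k ∧ fm ⟨t, w⟩ = Sum.inr k') →
  ∀ ρ : Fin a × Fin Q → Fin a × Fin q,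
  (∀ r z, (univ.filter (fun p => ρ p = r ∧ ty p.2 = z)).card = c z) →
  ∑ σ : Equiv.Perm (Fin a × Fin q), ∑ τ : Fin u → Equiv.Perm (Fin a), VV (fullForm l) l'
    (fun p => Sum.elim (fun x => (σ (ρ x)).1) (fun j => τ j (e p)) (fm p)) = 0

/-- Row E: the special groups are spread in one way only. -/
def RowE : Prop := ∀ (n a u N Q : ℕ) (l' : Fin N → ℕ)
  (F : MultilinearMap ℂ (fun _ : Fin a => MvPolynomial (Fin n) ℂ) ℂ)
  (e : Box l' → Fin a) (fm : Box l' → (Fin a × Fin Q) ⊕ Fin u),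
  (∀ p i κ, fm p = Sum.inl (i, κ) → e p = i) →
  ∀ (A : Fin u → Fin a → ℕ), (∀ k, StrictMono (A k)) →
  ∀ col : ℕ → Fin N, (∀ k i k' i', col (A k i) = col (A k' i') → A k i = A k' i') →
  (∀ k i i', ∃ v, e ⟨col (A k i), v⟩ = i') →
  (∀ k i v, e ⟨col (A k i), v⟩ = i → fm ⟨col (A k i), v⟩ = Sum.inr k) →
  (∀ p k, fm p = Sum.inr k → p.1 = col (A k (e p))) →
  ∀ τ : Fin u → Equiv.Perm (Fin a),
  VV F l' (fun p => Sum.elim (fun x : Fin a × Fin Q => x.1) (fun j => τ j (e p)) (fm p)) ≠ 0 →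
  ∀ j, τ j = 1

/-- Row L: `labelK` with a given set `S i j` of common columns for every pair of rows. -/
def RowL : Prop := ∀ (a N Q w e b D D0 : ℕ) (C : Fin a → Finset (Fin N)) (sz : Fin Q → ℕ)
  (S : Fin a → Fin a → Finset (Fin N)), (∀ i j, S i j ⊆ C i ∩ C j) → 1 ≤ Q →
  1 ≤ w → (∀ k, w ≤ sz k) → (∀ i, (C i).card = ∑ k, sz k) →
  ∑ k, sz k ≤ Q * w + e → ∑ k, sz k ≤ b → D0 + 2 * e ≤ D →
  (a : ℝ) ^ 2 * (Q : ℝ) ^ 2 < Real.exp ((D0 : ℝ) ^ 2 / (4 * b * (Q : ℝ) ^ 2)) →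
  ∃ lab : Fin a → Fin N → Fin Q,
    (∀ i k, ((C i).filter (fun t => lab i t = k)).card = sz k) ∧
    ∀ i j, i ≠ j → ∀ k k', (S i j).card ≤
      Q ^ 2 * ((S i j).filter (fun t => lab i t = k ∧ lab j t = k')).card + D

end Vale.Agent.P181.BK
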