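import Vale.Agent.P181.BK.Asm
import Vale.Agent.P181.H626.TopK

/-!
P181: `b = q a + u`, numbers and the top theorem.
-/

set_option autoImplicit false

open scoped TensorProduct

namespace Vale.Agent.P181.BK

open Vale.Agent.P181 Vale.Agent.P181.H280 Vale.Agent.P181.H179 Vale.Agent.P181.H530
  Vale.Agent.P181.H54B Vale.Agent.P181.H626 Finset Vale.Agent.P181.H89

lemma numBK {s q k a X u : ℕ} (hs : 2 ≤ s) (hq : 2 ≤ q) (hk : k = s * s * (q + 1))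
    (ha2 : 2 ≤ a) (hu : u < a) (hb : 25 * s ^ 4 * q ^ 2 ≤ a)
    (ha : 4 * (10 : ℝ) ^ 6 * (s : ℝ) ^ 14 * (q : ℝ) ^ 7 * Real.log a ≤ a)
    (hX : 4 * (10 : ℝ) ^ 6 * (s : ℝ) ^ 14 * (q : ℝ) ^ 9 * a * Real.log a ≤ (X : ℝ) ^ 2) :
    ∃ D0 : ℕ, ((a + u : ℕ) : ℝ) ^ 2 * ((q * (2 * k + 1) : ℕ) : ℝ) ^ 2 <
      Real.exp ((D0 : ℝ) ^ 2 / (4 * ((q * a : ℕ) : ℝ) * ((q * (2 * k + 1) : ℕ) : ℝ) ^ 2)) ∧
      2 * s * (s * (s + 1)) * (q * (2 * k + 1)) *
        (D0 + 2 * (2 * k * (q * (2 * k + 1) + q))) < X ∧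
      D0 + 2 * (2 * k * (q * (2 * k + 1) + q)) < a - min u ((a + 1) / 2) := by
  have haR : (2 : ℝ) ≤ a := by exact_mod_cast ha2
  have ha0 : (0 : ℝ) < a := by linarith
  have hL : Real.log ((2 * a : ℕ) : ℝ) ≤ 2 * Real.log a := by
    push_cast
    rw [Real.log_mul (by norm_num) (by linarith)]
    have := Real.log_le_log (by norm_num : (0 : ℝ) < 2) haR
    linarith
  have hL0 : 0 ≤ Real.log (a : ℝ) := Real.log_nonneg (by linarith)
  obtain ⟨Y, hY⟩ : ∃ Y : ℝ, Y = 10 ^ 6 * (s : ℝ) ^ 14 * (q : ℝ) ^ 9 * ((2 * a : ℕ) : ℝ) *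
      Real.log ((2 * a : ℕ) : ℝ) := ⟨_, rfl⟩
  have hY1 : Y ≤ 4 * (10 : ℝ) ^ 6 * (s : ℝ) ^ 14 * (q : ℝ) ^ 9 * a * Real.log a := by
    rw [hY]
    have h1 : (0 : ℝ) ≤ 10 ^ 6 * (s : ℝ) ^ 14 * (q : ℝ) ^ 9 * ((2 * a : ℕ) : ℝ) := by positivity
    refine (mul_le_mul_of_nonneg_left hL h1).trans (le_of_eq ?_)
    push_cast
    ring
  have hYX : Real.sqrt Y ≤ X := by
    apply Real.sqrt_le_iff.2
    exact ⟨Nat.cast_nonneg _, hY1.trans hX⟩
  have hYqa : Real.sqrt Y ≤ ((q * a : ℕ) : ℝ) := by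
    apply Real.sqrt_le_iff.2
    refine ⟨Nat.cast_nonneg _, hY1.trans ?_⟩
    have h1 : (0 : ℝ) ≤ (q : ℝ) ^ 2 * a := by positivity
    have h2 := mul_le_mul_of_nonneg_left ha h1
    push_cast
    calc 4 * (10 : ℝ) ^ 6 * (s : ℝ) ^ 14 * (q : ℝ) ^ 9 * a * Real.log a =
        (q : ℝ) ^ 2 * a * (4 * (10 : ℝ) ^ 6 * (s : ℝ) ^ 14 * (q : ℝ) ^ 7 * Real.log a) := by ring
      _ ≤ (q : ℝ) ^ 2 * a * a := h2
      _ = (q * a) ^ 2 := by ring
  obtain ⟨X0, hX0⟩ : ∃ X0 : ℕ, X0 = ⌈Real.sqrt Y⌉₊ := ⟨_, rfl⟩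
  have hX0X : X0 ≤ X := by
    rw [hX0]
    exact Nat.ceil_le.2 hYX
  have hX0qa : X0 ≤ q * a := by
    rw [hX0]
    exact Nat.ceil_le.2 hYqa
  have hY0 : 0 ≤ Y := by
    rw [hY]
    have : 0 ≤ Real.log ((2 * a : ℕ) : ℝ) := Real.log_nonneg (by push_cast; linarith)
    positivity
  have hX0Y : Y ≤ (X0 : ℝ) ^ 2 := by
    have h1 : Real.sqrt Y ≤ X0 := by
      rw [hX0]
      exact Nat.le_ceil _
    calc Y = Real.sqrt Y ^ 2 := (Real.sq_sqrt hY0).symm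
      _ ≤ (X0 : ℝ) ^ 2 := pow_le_pow_left₀ (Real.sqrt_nonneg _) h1 2
  obtain ⟨D0, h1, h2⟩ := numK s q k (2 * a) X0 hs (by omega) hk (by omega) (by
    rw [hY] at hX0Y
    exact hX0Y)
  refine ⟨D0, ?_, lt_of_lt_of_le h2 hX0X, ?_⟩
  · have h3 : ((a + u : ℕ) : ℝ) ^ 2 * ((q * (2 * k + 1) : ℕ) : ℝ) ^ 2 ≤
        ((2 * a : ℕ) : ℝ) ^ 2 * ((q * (2 * k + 1) : ℕ) : ℝ) ^ 2 := by
      apply mul_le_mul_of_nonneg_right _ (by positivity)
      apply pow_le_pow_left₀ (Nat.cast_nonneg _)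
      exact_mod_cast (by omega : a + u ≤ 2 * a)
    refine lt_of_le_of_lt h3 (lt_of_lt_of_le h1 ?_)
    rw [Real.exp_le_exp]
    have hqa0 : (0 : ℝ) < ((q * a : ℕ) : ℝ) := by
      exact_mod_cast Nat.mul_pos (by omega) (by omega)
    have hQ0 : (0 : ℝ) < ((q * (2 * k + 1) : ℕ) : ℝ) := by
      exact_mod_cast Nat.mul_pos (by omega) (by omega)
    apply div_le_div_of_nonneg_left (by positivity) (by positivity)
    apply mul_le_mul_of_nonneg_right _ (by positivity)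
    apply mul_le_mul_of_nonneg_left _ (by norm_num)
    exact_mod_cast Nat.mul_le_mul_left q (by omega : a ≤ 2 * a)
  · obtain ⟨R, hR⟩ : ∃ R, R = D0 + 2 * (2 * k * (q * (2 * k + 1) + q)) := ⟨_, rfl⟩
    rw [← hR] at h2 ⊢
    have h3 : 4 * q ≤ 2 * s * (s * (s + 1)) * (q * (2 * k + 1)) := by
      have h4 : 2 * 1 ≤ 2 * s * (s * (s + 1)) * 1 := by
        have h5 : 1 ≤ s * (s * (s + 1)) := Nat.mul_pos (by omega) (Nat.mul_pos (by omega) (by omega))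
        calc 2 * 1 ≤ 2 * (s * (s * (s + 1))) := Nat.mul_le_mul_left 2 h5
          _ = 2 * s * (s * (s + 1)) * 1 := by ring
      have hk1 : 1 ≤ k := by
        rw [hk]
        exact Nat.mul_pos (Nat.mul_pos (by omega) (by omega)) (by omega)
      have h6 : q * 2 ≤ q * (2 * k + 1) := Nat.mul_le_mul_left q (by omega)
      calc 4 * q = 2 * 1 * (q * 2) := by ring
        _ ≤ 2 * s * (s * (s + 1)) * 1 * (q * (2 * k + 1)) := Nat.mul_le_mul h4 h6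
        _ = _ := by ring
    have h5 : q * (4 * R) < q * a := by
      calc q * (4 * R) = 4 * q * R := by ring
        _ ≤ 2 * s * (s * (s + 1)) * (q * (2 * k + 1)) * R := Nat.mul_le_mul_right R h3
        _ < X0 := h2
        _ ≤ q * a := hX0qa
    have h6 : 4 * R < a := Nat.lt_of_mul_lt_mul_left h5
    have h7 : min u ((a + 1) / 2) ≤ (a + 1) / 2 := min_le_right _ _
    omega

/-- **`b = q a + u`, any number of rows in a part.** -/
theorem bulkK (hG : RowG) (hE : RowE) (hL : RowL) {a q s u X n : ℕ} (hs : 2 ≤ s) (hq : 2 ≤ q)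
    (hu : 1 ≤ u) (hua : u < a) (han : a ≤ n)
    (ha : 4 * (10 : ℝ) ^ 6 * (s : ℝ) ^ 14 * (q : ℝ) ^ 7 * Real.log a ≤ a)
    (hX : 4 * (10 : ℝ) ^ 6 * (s : ℝ) ^ 14 * (q : ℝ) ^ 9 * a * Real.log a ≤ (X : ℝ) ^ 2) :
    ∃ Ψ : Pleth a (q * a + u) n →ₗ[ℂ] Pleth (q * a + u) a n, IsEquivariant Ψ ∧
      ∀ lam : Fin n → ℕ, ((∀ i, 2 * lam i + 2 * X + 3 * s * a ≤ 2 * ((s + 1) * (q * a))) ∨
        ∀ i : Fin n, (i : ℕ) + s ≤ a → 2 * X + 5 * a ≤ 2 * lam i) →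
        (∀ i : Fin n, (i : ℕ) < a → 5 * a ≤ 2 * lam i) →
        InjOnHW Ψ lam ∧ plethMult a (q * a + u) n lam ≤ plethMult (q * a + u) a n lam := by
  have ha2' : 2 ≤ a := by omega
  have haR : (2 : ℝ) ≤ a := by exact_mod_cast ha2'
  have hlog : (1 / 2 : ℝ) ≤ Real.log a := by
    have h1 := Real.log_le_log (by norm_num : (0 : ℝ) < 2) haR
    have h2 := Real.log_two_gt_d9
    linarith
  have hsR : (2 : ℝ) ≤ s := by exact_mod_cast hs
  have hqR : (2 : ℝ) ≤ q := by exact_mod_cast hq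
  have hb : 25 * s ^ 4 * q ^ 2 ≤ a := by
    have h1 : (25 : ℝ) * (s : ℝ) ^ 4 * (q : ℝ) ^ 2 ≤
        4 * (10 : ℝ) ^ 6 * (s : ℝ) ^ 14 * (q : ℝ) ^ 7 * Real.log a := by
      have h2 : (s : ℝ) ^ 4 ≤ (s : ℝ) ^ 14 := pow_le_pow_right₀ (by linarith) (by norm_num)
      have h3 : (q : ℝ) ^ 2 ≤ (q : ℝ) ^ 7 := pow_le_pow_right₀ (by linarith) (by norm_num)
      have h4 : (25 : ℝ) * (s : ℝ) ^ 4 * (q : ℝ) ^ 2 ≤ 25 * (s : ℝ) ^ 14 * (q : ℝ) ^ 7 :=
        mul_le_mul (mul_le_mul_of_nonneg_left h2 (by norm_num)) h3 (by positivity) (by positivity)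
      have h5 : 0 ≤ (s : ℝ) ^ 14 * (q : ℝ) ^ 7 := by positivity
      nlinarith [mul_le_mul_of_nonneg_left hlog h5]
    have h2 : ((25 * s ^ 4 * q ^ 2 : ℕ) : ℝ) ≤ (a : ℝ) := by
      push_cast
      exact h1.trans ha
    exact_mod_cast h2
  obtain ⟨k, hk⟩ : ∃ k, k = s * s * (q + 1) := ⟨_, rfl⟩
  have hkq : s * (s - 1) * (q + 1) ≤ k := by
    rw [hk]
    exact Nat.mul_le_mul_right _ (Nat.mul_le_mul_left s (by omega))
  have hk1 : 1 ≤ k := by
    rw [hk]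
    exact Nat.mul_pos (Nat.mul_pos (by omega) (by omega)) (by omega)
  have hQ1 : 1 ≤ q * (2 * k + 1) := Nat.mul_pos (by omega) (by omega)
  have hk5 : 2 * k + 1 ≤ 5 * (s * s * q) := by
    rw [hk]
    have h1 : 1 ≤ s * s * q := Nat.mul_pos (Nat.mul_pos (by omega) (by omega)) (by omega)
    have h2 : s * s * 1 ≤ s * s * q := Nat.mul_le_mul_left _ (by omega)
    calc 2 * (s * s * (q + 1)) + 1 = 2 * (s * s * q) + 2 * (s * s * 1) + 1 := by ring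
      _ ≤ 2 * (s * s * q) + 2 * (s * s * q) + s * s * q := by omega
      _ = 5 * (s * s * q) := by ring
  have ha2 : (2 * k + 1) * (2 * k + 1) ≤ a := by
    refine le_trans (Nat.mul_le_mul hk5 hk5) (le_trans (le_of_eq ?_) hb)
    ring
  have ha3 : s + 1 ≤ a := by
    have h1 : s * 1 ≤ s * s := Nat.mul_le_mul_left s (by omega)
    have h2 : s * s * 1 ≤ s * s * (q + 1) := Nat.mul_le_mul_left _ (by omega)
    have h3 : (2 * k + 1) * 1 ≤ (2 * k + 1) * (2 * k + 1) := Nat.mul_le_mul_left _ (by omega)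
    omega
  obtain ⟨D0, hnum, hDX, hDa⟩ := numBK hs hq hk ha2' hua hb ha hX
  obtain ⟨g, g', w, hag, hw, hg, hg', he⟩ := sizesS k q a ha2
  obtain ⟨W, hW⟩ : ∃ W, W + 1 = a + u + (u - (a + 1) / 2) :=
    ⟨a + u + (u - (a + 1) / 2) - 1, by omega⟩
  obtain ⟨ε, E, hE'⟩ := exists_bulk_arr a q u
  have hW5 : 2 * W ≤ 5 * a := by omega
  have hWs : 2 * (s * W) ≤ 3 * s * a + 2 * (s * u) := by
    have h1 : 2 * W ≤ 3 * a + 2 * u := by omega
    calc 2 * (s * W) = s * (2 * W) := by ring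
      _ ≤ s * (3 * a + 2 * u) := Nat.mul_le_mul_left s h1
      _ = 3 * s * a + 2 * (s * u) := by ring
  have hinj : ∀ lam : Fin n → ℕ,
      ((∀ i, 2 * lam i + 2 * X + 3 * s * a ≤ 2 * ((s + 1) * (q * a))) ∨
        ∀ i : Fin n, (i : ℕ) + s ≤ a → 2 * X + 5 * a ≤ 2 * lam i) →
        (∀ i : Fin n, (i : ℕ) < a → 5 * a ≤ 2 * lam i) →
      ∀ x ∈ hwSpace lam (plethAct a (q * a + u) n),
        arrMap a (q * a + u) E (Fin n → ℂ) x = 0 → x = 0 := by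
    intro lam hlam htall x hx h0
    refine injBK hG hE hL (s := s) (w := w) (e0 := 2 * k * (q * (2 * k + 1) + q)) (D0 := D0)
      (D := D0 + 2 * (2 * k * (q * (2 * k + 1) + q))) (X := X) (W := W)
      (tyS k q) (cS k) (gS g g') (by omega) ha3 hq hu hua hQ1
      ⟨true, by rw [cS, if_pos rfl]; exact hk1⟩
      (card_tyS k q) (by rw [cS, cS, gS, gS, if_pos rfl, if_pos rfl, if_neg Bool.false_ne_true,
        if_neg Bool.false_ne_true]; exact hag) hw (fun κ => by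
        rw [gS]
        split_ifs
        · exact hg
        · exact hg') he le_rfl hnum hDX hDa
      (fun s' h1 h2 => pmAll s q (by omega) s' (cS k) h1 h2 (fun z => by
        rw [cS]
        split_ifs
        · exact hkq
        · omega)) ε E hE' han hW lam ?_ (fun m hm => by have := htall m hm; omega) x hx h0
    rcases hlam with h | h
    · left
      have h1 := h ⟨0, by omega⟩
      refine ⟨(s + 1) * (q * a + u) - X - s * W, fun m => ?_, ?_⟩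
      · have h2 := h m
        have h3 : (s + 1) * (q * a + u) = (s + 1) * (q * a) + s * u + u := by ring
        omega
      · have h3 : (s + 1) * (q * a + u) = (s + 1) * (q * a) + s * u + u := by ring
        omega
    · right
      intro m hm
      have := h m hm
      omega
  refine ⟨arrMap a (q * a + u) E (Fin n → ℂ),
    fun g x => LinearMap.congr_fun (arrMap_equivariant a (q * a + u) E (Matrix.toLin' g)) x,
    fun lam hlam htall => ⟨fun x hx h0 => hinj lam hlam htall x hx h0, ?_⟩⟩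
  exact finrank_le_of_inj (arrMap a (q * a + u) E (Fin n → ℂ)) _ _
    (fun x hx => arrMap_hwSpace E lam x hx) (hinj lam hlam htall)

end Vale.Agent.P181.BK
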